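import Vale.Agent.P034F.Final
import Vale.Agent.P034F.Attained
import Vale.Agent.P034F.Ind

/-- Talagrand's conjecture: the fractional expectation threshold is at most a universal constant
times the integral expectation threshold.  Both thresholds are attained (they are maxima). -/
theorem Vale.Agent.Results.P034.TalagrandThresholds.result :
    ∃ K : ℝ, 0 < K ∧ ∀ (X : Type) [Fintype X] [DecidableEq X] [Nonempty X] (F : Set (Finset X)),
      ExpThr.IsFamily F →
        IsGreatest (ExpThr.smallSet F) (ExpThr.q F) ∧
        IsGreatest (ExpThr.fracSmallSet F) (ExpThr.qf F) ∧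
        ExpThr.qf F ≤ K * ExpThr.q F := by
  obtain ⟨K, hK, h⟩ := ExpThr.top (ExpThr.claim_bridge fun X _ _ q K hq hK =>
    TAL.claim_all ⊥ q K hq hK)
  exact ⟨K, hK, fun X _ _ _ F hF =>
    ⟨ExpThr.isGreatest_q hF, ExpThr.isGreatest_qf hF, h X F hF⟩⟩
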